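import Vale.Agent.P061.Main

namespace Vale.Agent.Results.P061.A_full

open Vale.Agent.P061

/-- The strong thin tree conjecture: there is an absolute constant `C` such that every
`k`-edge-connected loopless multigraph on at least two vertices has a `C / k`-thin spanning tree. -/
theorem result : ∃ C : ℝ, ∀ (V E : Type) [Fintype V] [DecidableEq V] [Fintype E] [DecidableEq E]
    (ends : E → Sym2 V) (k : ℕ), 1 ≤ k → 2 ≤ Fintype.card V → (∀ e, ¬ (ends e).IsDiag) →
    EdgeConnected ends k → ∃ T : Finset E, IsSpanningTree ends T ∧
      ∀ S : Finset V, S.Nonempty → S ≠ Finset.univ →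
        ((cut ends T S).card : ℝ) ≤ C / k * (cut ends Finset.univ S).card :=
  main

end Vale.Agent.Results.P061.A_full
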